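import Vale.Agent.P252.Mat

namespace Vale.Agent.P252

open Matrix

variable {p : ℕ}

/-- The vector with zeroth coordinate removed. -/
def yv (x : Fin (p + 1) → ℝ) : Fin (p + 1) → ℝ := fun i => if i = 0 then 0 else x i

def ev : Fin (p + 1) → ℝ := fun i => if i = 0 then 1 else 0

def sN (x : Fin (p + 1) → ℝ) : ℝ := yv x ⬝ᵥ yv x

lemma yv_ev (x : Fin (p + 1) → ℝ) : yv x ⬝ᵥ ev = 0 := by
  simp [dotProduct, yv, ev]

lemma ev_ev : (ev : Fin (p + 1) → ℝ) ⬝ᵥ ev = 1 := by
  simp [dotProduct, ev]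

lemma sq_nonneg' (x : Fin (p + 1) → ℝ) : 0 ≤ sN x := by
  unfold sN dotProduct
  exact Finset.sum_nonneg fun _ _ => mul_self_nonneg _

noncomputable def Yl (x : Fin (p + 1) → ℝ) : (Fin (p + 1) → ℝ) →L[ℝ] ℝ :=
  ∑ i, yv x i • ContinuousLinearMap.proj i

noncomputable def El : (Fin (p + 1) → ℝ) →L[ℝ] ℝ := ContinuousLinearMap.proj 0

lemma Yl_single (x : Fin (p + 1) → ℝ) (j : Fin (p + 1)) : Yl x (Pi.single j 1) = yv x j := by
  simp [Yl, _root_.sum_apply, Pi.single_apply]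

lemma El_single (j : Fin (p + 1)) : El (Pi.single j (1 : ℝ)) = ev j := by
  simp [El, ev, Pi.single_apply, eq_comm]

/-- `g` has gradient `a y + b e` at `x`. -/
def D1 (g : (Fin (p + 1) → ℝ) → ℝ) (x : Fin (p + 1) → ℝ) (a b : ℝ) : Prop :=
  HasFDerivAt g (a • Yl x + b • El) x

lemma D1.congr {g : (Fin (p + 1) → ℝ) → ℝ} {x a b a' b'} (h : D1 g x a b) (ha : a = a')
    (hb : b = b') : D1 g x a' b' := ha ▸ hb ▸ h

lemma D1.const (c : ℝ) (x : Fin (p + 1) → ℝ) : D1 (fun _ => c) x 0 0 := by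
  simpa [D1] using hasFDerivAt_const c x

lemma D1.add {f g : (Fin (p + 1) → ℝ) → ℝ} {x a b a' b'} (h : D1 f x a b) (h' : D1 g x a' b') :
    D1 (fun z => f z + g z) x (a + a') (b + b') := by
  refine (HasFDerivAt.add h h').congr_fderiv ?_
  module

lemma D1.mul {f g : (Fin (p + 1) → ℝ) → ℝ} {x a b a' b'} (h : D1 f x a b) (h' : D1 g x a' b') :
    D1 (fun z => f z * g z) x (a * g x + f x * a') (b * g x + f x * b') := by
  refine (HasFDerivAt.mul h h').congr_fderiv ?_
  module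

lemma D1.comp {g : (Fin (p + 1) → ℝ) → ℝ} {x a b} {φ : ℝ → ℝ} {d : ℝ} (h : D1 g x a b)
    (hφ : HasDerivAt φ d (g x)) : D1 (fun z => φ (g z)) x (d * a) (d * b) := by
  refine (hφ.comp_hasFDerivAt x h).congr_fderiv ?_
  module

lemma D1.t (x : Fin (p + 1) → ℝ) : D1 (fun z => z 0) x 0 1 := by
  have : HasFDerivAt (fun z : Fin (p + 1) → ℝ => z 0) El x := (El (p := p)).hasFDerivAt (x := x)
  simpa [D1] using this

lemma yv_deriv (x : Fin (p + 1) → ℝ) (j : Fin (p + 1)) :
    HasFDerivAt (fun z => yv z j)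
      (if j = 0 then (0 : (Fin (p + 1) → ℝ) →L[ℝ] ℝ) else ContinuousLinearMap.proj j) x := by
  unfold yv
  split_ifs with h
  · exact hasFDerivAt_const 0 x
  · exact hasFDerivAt_apply j x

lemma D1.sN (x : Fin (p + 1) → ℝ) : D1 sN x 2 0 := by
  have h := HasFDerivAt.fun_sum (u := Finset.univ)
    (fun i _ => (yv_deriv x i).mul (yv_deriv x i))
  refine HasFDerivAt.congr_fderiv h ?_
  ext v
  simp only [Yl, _root_.sum_apply, zero_smul, add_zero, _root_.smul_apply,
    _root_.add_apply, Finset.smul_sum]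
  refine Finset.sum_congr rfl fun i _ => ?_
  by_cases hi : i = 0
  · simp [hi, yv]
  · simp [hi]; ring

lemma contDiff_sq {k : WithTop ℕ∞} : ContDiff ℝ k (sN (p := p)) := by
  unfold sN dotProduct
  refine ContDiff.sum fun i _ => ?_
  have : ContDiff ℝ k (fun z : Fin (p + 1) → ℝ => yv z i) := by
    unfold yv
    split_ifs
    · exact contDiff_const
    · exact contDiff_apply ℝ ℝ i
  exact this.mul this

lemma D1.dirD {g : (Fin (p + 1) → ℝ) → ℝ} {x a b} (h : D1 g x a b) (j : Fin (p + 1)) :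
    dirD j g x = a * yv x j + b * ev j := by
  unfold P252.dirD
  rw [HasFDerivAt.fderiv h]
  simp [Yl_single, El_single]

lemma hess_eq {g a b : (Fin (p + 1) → ℝ) → ℝ} (h : ∀ z, D1 g z (a z) (b z))
    {x : Fin (p + 1) → ℝ} {a1 a2 b2 : ℝ} (ha : D1 a x a1 a2) (hb : D1 b x a2 b2) :
    hess g x = mat (yv x) ev (a x) a1 a2 (b2 - a x) := by
  ext i j
  have e : dirD j g = fun z => a z * yv z j + b z * ev j := funext fun z => (h z).dirD j
  have hd := (HasFDerivAt.mul ha (yv_deriv x j)).add (HasFDerivAt.mul_const hb (ev j))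
  rw [mat_apply, hess, Matrix.of_apply, e]
  unfold dirD
  erw [hd.fderiv]
  simp only [_root_.add_apply, _root_.smul_apply, Yl_single, El_single,
    smul_eq_mul]
  by_cases hj : j = 0
  · subst hj
    by_cases hi : i = 0
    · subst hi; simp [yv, ev]
    · simp [yv, ev, hi]
  · by_cases hi : i = j
    · subst hi; simp [ev, hj]; ring
    · by_cases hi0 : i = 0
      · subst hi0; simp [ev, hj, yv, hi, Pi.single_apply, Ne.symm hi]; ring
      · simp [ev, hj, hi0, hi, Pi.single_apply, Ne.symm hi]; ring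

end Vale.Agent.P252
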