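import Mathlib

namespace Vale.Agent.P252

/-- The first derivative of `g` in the `i`-th coordinate direction. -/
noncomputable def dirD {n : ℕ} (i : Fin n) (g : (Fin n → ℝ) → ℝ) (x : Fin n → ℝ) : ℝ :=
  fderiv ℝ g x (Pi.single i 1)

/-- The Hessian matrix of `g` at `x`. -/
noncomputable def hess {n : ℕ} (g : (Fin n → ℝ) → ℝ) (x : Fin n → ℝ) : Matrix (Fin n) (Fin n) ℝ :=
  Matrix.of fun i j => dirD i (dirD j g) x

/-- `u` solves the affine maximal equation `∑ U^{ij} ∂_{ij} w = 0` on all of `ℝⁿ`, where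
`U = det (D²u) (D²u)⁻¹` and `w = (det D²u)^{-(n+1)/(n+2)}`. -/
def AffineMaximal {n : ℕ} (u : (Fin n → ℝ) → ℝ) : Prop :=
  ∀ x : Fin n → ℝ, ∑ i, ∑ j, ((hess u x).det • (hess u x)⁻¹) i j *
    hess (fun y => (hess u y).det ^ (-(((n : ℝ) + 1) / ((n : ℝ) + 2)))) x i j = 0

end Vale.Agent.P252
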