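import Vale.Agent.P072.Ode

namespace Vale.Agent.P252

open scoped ContDiff Topology
open Filter Set

lemma barrier {y y' : ℝ → ℝ} {A : ℝ} (hd : ∀ t, HasDerivAt y (y' t) t) (h0 : y 0 ≤ A)
    (h : ∀ t, 0 ≤ t → A < y t → y' t ≤ 0) : ∀ t, 0 ≤ t → y t ≤ A := by
  intro t1 ht1
  by_contra hc
  push Not at hc
  have hcont : Continuous y := continuous_iff_continuousAt.2 fun t => (hd t).continuousAt
  have hcl : IsClosed (Icc 0 t1 ∩ {t | y t ≤ A}) :=
    isClosed_Icc.inter (isClosed_le hcont continuous_const)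
  have hbd : BddAbove (Icc 0 t1 ∩ {t | y t ≤ A}) := ⟨t1, fun _ h => h.1.2⟩
  have hne : (Icc 0 t1 ∩ {t | y t ≤ A}).Nonempty := ⟨0, ⟨le_rfl, ht1⟩, h0⟩
  have hm := hcl.csSup_mem hne hbd
  set t0 := sSup (Icc 0 t1 ∩ {t | y t ≤ A})
  have ha : AntitoneOn y (Icc t0 t1) := by
    refine antitoneOn_of_deriv_nonpos (convex_Icc _ _) hcont.continuousOn
      (fun t _ => (hd t).differentiableAt.differentiableWithinAt) fun t ht => ?_
    rw [interior_Icc] at ht
    rw [(hd t).deriv]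
    refine h t (hm.1.1.trans ht.1.le) ?_
    by_contra h2
    push Not at h2
    exact absurd (le_csSup hbd ⟨⟨hm.1.1.trans ht.1.le, ht.2.le⟩, h2⟩) (not_le.2 ht.1)
  have := ha ⟨le_rfl, hm.1.2⟩ ⟨hm.1.2, le_rfl⟩ hm.1.2
  exact absurd (this.trans hm.2) (not_le.2 hc)

lemma stay_pos {y y' : ℝ → ℝ} {M : ℝ} (hd : ∀ t, HasDerivAt y (y' t) t) (h0 : 0 < y 0)
    (h : ∀ t, 0 ≤ t → -(M * y t) ≤ y' t) : ∀ t, 0 ≤ t → 0 < y t := by
  intro t ht
  have h1 : ∀ t, HasDerivAt (fun t => -(y t * Real.exp (M * t)))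
      (-(y' t * Real.exp (M * t) + y t * (Real.exp (M * t) * M))) t := fun t =>
    ((hd t).mul (by simpa using ((hasDerivAt_id t).const_mul M).exp)).neg
  have h2 := barrier (A := -y 0) h1 (by simp) (fun t ht _ => by
    have := mul_le_mul_of_nonneg_right (h t ht) (Real.exp_pos (M * t)).le
    nlinarith) t ht
  have h3 : 0 < y t * Real.exp (M * t) := by linarith
  exact pos_of_mul_pos_right' h3
where pos_of_mul_pos_right' {a b : ℝ} (h : 0 < a * Real.exp b) : 0 < a :=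
  (mul_pos_iff_of_pos_right (Real.exp_pos b)).1 h

noncomputable def Nf (p a b : ℝ) : ℝ := p ^ 2 + (2 * p - 3) * a + 2 * a ^ 2 - (p ^ 2 - 6 * a) * b

noncomputable def Vf (p : ℝ) (x : ℝ × ℝ) : ℝ × ℝ :=
  (x.1 * (1 + x.2 - x.1), x.2 * Nf p x.1 x.2 / (p + 2 * x.1))

noncomputable def cl (A x : ℝ) : ℝ := max 0 (min x A)

lemma cl_mem {A : ℝ} (hA : 0 ≤ A) (x : ℝ) : cl A x ∈ Icc 0 A :=
  ⟨le_max_left _ _, max_le hA (min_le_right _ _)⟩

lemma cl_lip (A x y : ℝ) : |cl A x - cl A y| ≤ |x - y| :=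
  (abs_max_sub_max_le_max _ _ _ _).trans (max_le (by simp)
    ((abs_min_sub_min_le_max _ _ _ _).trans (max_le le_rfl (by simp))))

lemma global_ode {p a0 b0 : ℝ} (hp : 9 ≤ p) (ha0 : 0 < a0) (ha1 : a0 ≤ 9 / 2) (hb0 : 0 < b0)
    (hb1 : b0 ≤ 7 / 2) : ∃ a b : ℝ → ℝ, a 0 = a0 ∧ b 0 = b0 ∧ ∀ t, 0 ≤ t → 0 < a t ∧ 0 < b t ∧
      HasDerivAt a (a t * (1 + b t - a t)) t ∧
      HasDerivAt b (b t * Nf p (a t) (b t) / (p + 2 * a t)) t := by
  set K : Set (ℝ × ℝ) := Icc 0 (9 / 2) ×ˢ Icc 0 (7 / 2)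
  have hK : IsCompact K := isCompact_Icc.prod isCompact_Icc
  have hV : ∀ x ∈ K, ContDiffAt ℝ 1 (Vf p) x := fun x hx => by
    have : p + 2 * x.1 ≠ 0 := by have := hx.1.1; positivity
    unfold Vf Nf
    fun_prop (disch := assumption)
  have hL : LocallyLipschitzOn K (Vf p) := fun x hx => by
    obtain ⟨L, t, ht, h⟩ := (hV x hx).exists_lipschitzOnWith
    exact ⟨L, t, mem_nhdsWithin_of_mem_nhds ht, h⟩
  obtain ⟨L, hL⟩ := hL.exists_lipschitzOnWith_of_compact hK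
  obtain ⟨M, hM⟩ := hK.exists_bound_of_continuousOn
    (fun x hx => (hV x hx).continuousAt.continuousWithinAt)
  set c : ℝ × ℝ → ℝ × ℝ := fun x => (cl (9 / 2) x.1, cl (7 / 2) x.2) with hc
  have hcK : ∀ x, c x ∈ K := fun x => ⟨cl_mem (by norm_num) _, cl_mem (by norm_num) _⟩
  have hlip : ∀ x y, ‖Vf p (c x) - Vf p (c y)‖ ≤ (L + 1) * ‖x - y‖ := fun x y => by
    have h1 := hL.norm_sub_le (hcK x) (hcK y)
    have h2 : ‖c x - c y‖ ≤ ‖x - y‖ := by
      rw [Prod.norm_def, Prod.norm_def]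
      exact max_le_max (cl_lip _ _ _) (cl_lip _ _ _)
    have h3 : (0 : ℝ) ≤ L := L.2
    nlinarith [norm_nonneg (x - y), norm_nonneg (c x - c y)]
  have hcont : Continuous fun x => Vf p (c x) :=
    (LipschitzWith.of_dist_le_mul (K := L + 1) fun x y => by
      simpa [dist_eq_norm] using hlip x y).continuous
  obtain ⟨x, hx, hx2⟩ := P072.exists_sol (fun _ x => Vf p (c x)) (L := L + 1) (M := M)
    (by positivity) ((norm_nonneg _).trans (hM _ (hcK 0))) (fun _ => hlip)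
    (fun _ x => hM _ (hcK x)) (fun x hx a b => (hcont.comp hx).intervalIntegrable _ _) (a0, b0)
  set z : ℝ → ℝ × ℝ := fun t => (a0, b0) + ∫ s in (0 : ℝ)..t, Vf p (c (x s)) with hz
  have hd : ∀ t, HasDerivAt z (Vf p (c (x t))) t := fun t =>
    ((hcont.comp hx).integral_hasStrictDerivAt 0 t).hasDerivAt.const_add _
  have hzx : ∀ t, 0 ≤ t → x t = z t := hx2
  have d1 : ∀ t, HasDerivAt (fun t => (z t).1) (Vf p (c (x t))).1 t := fun t =>
    (ContinuousLinearMap.fst ℝ ℝ ℝ).hasFDerivAt.comp_hasDerivAt t (hd t)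
  have d2 : ∀ t, HasDerivAt (fun t => (z t).2) (Vf p (c (x t))).2 t := fun t =>
    (ContinuousLinearMap.snd ℝ ℝ ℝ).hasFDerivAt.comp_hasDerivAt t (hd t)
  have z1 : (z 0).1 = a0 := by simp [hz]
  have z2 : (z 0).2 = b0 := by simp [hz]
  have u1 := barrier (A := 9 / 2) d1 (by rw [z1]; exact ha1) (fun t ht h => by
    rw [hzx t ht]
    have e : cl (9 / 2) (z t).1 = 9 / 2 := by
      rw [cl, min_eq_right h.le, max_eq_right (by norm_num)]
    have := (hcK (z t)).2.2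
    simp only [Vf, hc, e] at this ⊢
    linarith)
  have u2 := barrier (A := 7 / 2) d2 (by rw [z2]; exact hb1) (fun t ht h => by
    rw [hzx t ht]
    have e : cl (7 / 2) (z t).2 = 7 / 2 := by
      rw [cl, min_eq_right h.le, max_eq_right (by norm_num)]
    have := (hcK (z t)).1
    simp only [Vf, hc, e, Nf, mem_Icc] at this ⊢
    obtain ⟨h1, h2⟩ := this
    refine div_nonpos_of_nonpos_of_nonneg (mul_nonpos_of_nonneg_of_nonpos (by norm_num) ?_)
      (by positivity)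
    nlinarith)
  have l1 := barrier (A := 0) (fun t => (d1 t).neg) (by simp [z1, ha0.le]) (fun t ht h => by
    rw [hzx t ht]
    have h' : (z t).1 < 0 := by simpa using h
    have e : cl (9 / 2) (z t).1 = 0 := by
      rw [cl, max_eq_left (min_le_of_left_le h'.le)]
    simp [Vf, hc, e])
  have l2 := barrier (A := 0) (fun t => (d2 t).neg) (by simp [z2, hb0.le]) (fun t ht h => by
    rw [hzx t ht]
    have h' : (z t).2 < 0 := by simpa using h
    have e : cl (7 / 2) (z t).2 = 0 := by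
      rw [cl, max_eq_left (min_le_of_left_le h'.le)]
    simp [Vf, hc, e])
  simp only [Pi.neg_apply, neg_nonpos] at l1 l2
  have hcz : ∀ t, 0 ≤ t → c (x t) = z t := fun t ht => by
    rw [hzx t ht]
    simp only [hc, cl, min_eq_left (u1 t ht), min_eq_left (u2 t ht), max_eq_right (l1 t ht),
      max_eq_right (l2 t ht)]
  have p1 := stay_pos (M := 5) d1 (by rwa [z1]) (fun t ht => by
    rw [hcz t ht]
    simp only [Vf]
    nlinarith [u1 t ht, l1 t ht, l2 t ht, mul_nonneg (l1 t ht) (l2 t ht)])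
  have p2 := stay_pos (M := 4 * p) d2 (by rwa [z2]) (fun t ht => by
    rw [hcz t ht]
    simp only [Vf]
    have h1 := l1 t ht
    have h2 := l2 t ht
    have h3 := u2 t ht
    rw [le_div_iff₀ (by positivity)]
    have : 0 ≤ Nf p (z t).1 (z t).2 + 4 * p * (p + 2 * (z t).1) := by
      unfold Nf
      have := mul_nonneg h1 h2
      have := mul_nonneg h1 (show 0 ≤ p - 9 by linarith)
      have := mul_nonneg (sq_nonneg p) (show 0 ≤ 7 / 2 - (z t).2 by linarith)
      nlinarith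
    nlinarith [mul_nonneg h2 this])
  refine ⟨fun t => (z t).1, fun t => (z t).2, z1, z2, fun t ht => ⟨p1 t ht, p2 t ht, ?_, ?_⟩⟩
  · have := d1 t
    rwa [hcz t ht] at this
  · have := d2 t
    rwa [hcz t ht] at this

end Vale.Agent.P252
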