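import Mathlib

namespace Vale.Agent.P252

open scoped ContDiff Topology unitInterval
open Filter

lemma ift {X : Type*} [NormedAddCommGroup X] [NormedSpace ℝ X] [CompleteSpace X] (Φ : ℝ × X → X)
    (hΦ : ContDiff ℝ ω Φ) (h0 : ∀ Y, Φ (0, Y) = 0) (Y0 : X) :
    ∃ Y : ℝ → X, ContDiffAt ℝ ω Y 0 ∧ Y 0 = Y0 ∧
      ∀ᶠ v in 𝓝 ((0 : ℝ), Y0), (v.2 - Φ v = Y0 ↔ Y v.1 = v.2) := by
  have hf : ContDiffAt ℝ ω (fun v : ℝ × X => v.2 - Φ v) (0, Y0) :=
    (contDiff_snd.sub hΦ).contDiffAt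
  have hd := (hf.differentiableAt (by simp)).hasFDerivAt
  have h1 : HasFDerivAt (fun Y : X => ((0 : ℝ), Y)) (ContinuousLinearMap.inr ℝ ℝ X) Y0 :=
    hasFDerivAt_prodMk_right 0 Y0
  have h2 := HasFDerivAt.comp Y0 (f := fun Y : X => ((0 : ℝ), Y)) hd h1
  have h3 : ((fun v : ℝ × X => v.2 - Φ v) ∘ fun Y : X => ((0 : ℝ), Y)) = id := by
    ext Y; simp [h0]
  rw [h3] at h2
  have h4 := h2.unique (hasFDerivAt_id Y0)
  have hi : (fderiv ℝ (fun v : ℝ × X => v.2 - Φ v) (0, Y0) ∘L
      ContinuousLinearMap.inr ℝ ℝ X).IsInvertible := by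
    rw [h4]; exact ⟨ContinuousLinearEquiv.refl ℝ X, rfl⟩
  refine ⟨hf.implicitFunction (by simp) hi, hf.contDiffAt_implicitFunction (by simp) hi,
    hf.implicitFunction_apply_self (by simp) hi, ?_⟩
  have := hf.eventually_apply_eq_iff_implicitFunction (by simp) hi
  simpa [h0] using this

abbrev EE := C(I, ℝ)

noncomputable def pr (u : ℝ) : I := Set.projIcc 0 1 zero_le_one u

lemma continuous_pr : Continuous pr := continuous_projIcc (h := zero_le_one)

noncomputable def Tf (m : NNReal) (g : EE) : EE :=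
  ⟨fun w => ∫ u in (0 : ℝ)..1, u ^ (m : ℝ) * g (pr u * w),
    intervalIntegral.continuous_parametric_intervalIntegral_of_continuous' (by
      have h1 := Real.continuous_rpow_const m.2
      have h2 := continuous_pr
      exact (h1.comp continuous_snd).mul
        (g.continuous.comp ((h2.comp continuous_snd).mul continuous_fst))) 0 1⟩

lemma Tf_int (m : NNReal) (g : EE) (w : I) :
    IntervalIntegrable (fun u : ℝ => u ^ (m : ℝ) * g (pr u * w)) MeasureTheory.volume 0 1 :=
  Continuous.intervalIntegrable ((Real.continuous_rpow_const m.2).mul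
    (g.continuous.comp (continuous_pr.mul continuous_const))) _ _

noncomputable def TT (m : NNReal) : EE →L[ℝ] EE :=
  LinearMap.mkContinuous
    { toFun := Tf m
      map_add' := fun g h => by
        ext w
        simp only [Tf, ContinuousMap.coe_mk, ContinuousMap.add_apply, mul_add]
        exact intervalIntegral.integral_add (Tf_int m g w) (Tf_int m h w)
      map_smul' := fun c g => by
        ext w
        simp only [Tf, ContinuousMap.coe_mk, ContinuousMap.smul_apply, smul_eq_mul, RingHom.id_apply,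
          ← intervalIntegral.integral_const_mul]
        exact intervalIntegral.integral_congr fun u _ => by ring } 1
    (fun g => by
      rw [ContinuousMap.norm_le _ (by positivity)]
      intro w
      have := intervalIntegral.norm_integral_le_of_norm_le_const (a := 0) (b := 1) (C := ‖g‖)
        (f := fun u : ℝ => u ^ (m : ℝ) * g (pr u * w)) (fun u hu => by
          rw [Set.uIoc_of_le zero_le_one] at hu
          rw [norm_mul, Real.norm_of_nonneg (Real.rpow_nonneg hu.1.le _)]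
          calc _ ≤ 1 * ‖g‖ := mul_le_mul (Real.rpow_le_one hu.1.le hu.2 m.2)
                (g.norm_coe_le_norm _) (norm_nonneg _) zero_le_one
            _ = _ := one_mul _)
      simpa [Tf] using this)

lemma TT_apply (m : NNReal) (g : EE) (w : I) :
    TT m g w = ∫ u in (0 : ℝ)..1, u ^ (m : ℝ) * g (pr u * w) := rfl

def io : EE := ⟨fun w => w, continuous_subtype_val⟩

def SS (l : I) (g : EE) : EE := g.comp ⟨fun w => w * l, continuous_id.mul continuous_const⟩

noncomputable def Hf (p s a b c : ℝ) : ℝ :=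
  (-(2 * p + 6) * (a * a) + (2 * p ^ 2 + 6 * p) * (a * b) +
    p * (b * ((2 * p + 3) * a + 2 * (s * a * a) - (p ^ 2 * b - 6 * (s * a * b))))) * c / (2 * p)

noncomputable def Phi (p : NNReal) (v : ℝ × EE × EE × EE) : EE × EE × EE :=
  ((v.1 • io) * TT 0 ((1 / 2 : ℝ) • (v.2.1 * (v.2.2.1 - v.2.1))),
    TT (p / 2) ((v.1 • io) * (((2 * p + 3) / (2 * p) : ℝ) •
        TT 0 ((1 / 2 : ℝ) • (v.2.1 * (v.2.2.1 - v.2.1))) +
      (1 / (2 * p) : ℝ) • (((-(2 * p + 6) : ℝ) • (v.2.1 * v.2.1) +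
        (2 * p ^ 2 + 6 * p : ℝ) • (v.2.1 * v.2.2.1) +
        (p : ℝ) • (v.2.2.1 * ((2 * p + 3 : ℝ) • v.2.1 + (2 : ℝ) • ((v.1 • io) * v.2.1 * v.2.1) -
          ((p ^ 2 : ℝ) • v.2.2.1 - (6 : ℝ) • ((v.1 • io) * v.2.1 * v.2.2.1))))) * v.2.2.2))),
    (-(2 / p) : ℝ) • ((v.1 • io) * v.2.1 * v.2.2.2))

lemma contDiff_Phi (p : NNReal) : ContDiff ℝ ω (Phi p) := by
  have h := fun m => (TT m).contDiff (n := ω)
  unfold Phi
  fun_prop

lemma Phi_zero (p : NNReal) (Y : EE × EE × EE) : Phi p (0, Y) = 0 := by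
  simp [Phi]

lemma SS_mul (l : I) (f g : EE) : SS l (f * g) = SS l f * SS l g := rfl
lemma SS_add (l : I) (f g : EE) : SS l (f + g) = SS l f + SS l g := rfl
lemma SS_sub (l : I) (f g : EE) : SS l (f - g) = SS l f - SS l g := rfl
lemma SS_smul (l : I) (c : ℝ) (g : EE) : SS l (c • g) = c • SS l g := rfl
lemma SS_TT (l : I) (m : NNReal) (g : EE) : SS l (TT m g) = TT m (SS l g) := by
  ext w
  simp [SS, TT_apply, mul_assoc]
lemma SS_io (l : I) : SS l io = (l : ℝ) • io := by
  ext w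
  simp [SS, io, mul_comm]

lemma Phi_scale (p : NNReal) (l : I) (s : ℝ) (Y : EE × EE × EE) :
    Phi p (l * s, SS l Y.1, SS l Y.2.1, SS l Y.2.2) =
      (SS l (Phi p (s, Y)).1, SS l (Phi p (s, Y)).2.1, SS l (Phi p (s, Y)).2.2) := by
  simp only [Phi, SS_mul, SS_add, SS_sub, SS_smul, SS_TT, SS_io, smul_smul, mul_comm s]

lemma SS_dist (l : I) (g : EE) (c : ℝ) :
    dist (SS l g) (ContinuousMap.const I c) ≤ dist g (ContinuousMap.const I c) := by
  rw [ContinuousMap.dist_le dist_nonneg]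
  intro w
  exact ContinuousMap.dist_apply_le_dist (f := g) (g := ContinuousMap.const I c) (w * l)

/-- Local solution in integral form. -/
lemma local_int (p : NNReal) (b0 : ℝ) : ∃ ε > 0, ∃ α β γ : ℝ → ℝ,
    α 0 = 1 ∧ β 0 = b0 ∧ (∀ s, |s| < ε → ContDiffAt ℝ ω α s ∧ ContDiffAt ℝ ω β s ∧
      ContDiffAt ℝ ω γ s ∧
      α s = 1 + s * ∫ u in (0 : ℝ)..1, α (u * s) * (β (u * s) - α (u * s)) / 2) ∧
    (∀ s, |s| < ε → β s = b0 + ∫ u in (0 : ℝ)..1, u ^ ((p : ℝ) / 2) *
        ((2 * p + 3) / (2 * p) * (α (u * s) - 1) +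
          u * s * Hf p (u * s) (α (u * s)) (β (u * s)) (γ (u * s)))) ∧
    ∀ s, |s| < ε → γ s = 1 / p - 2 / p * (s * α s * γ s) := by
  obtain ⟨Y, hY, hY0, hu⟩ := ift (Phi p) (contDiff_Phi p) (Phi_zero p)
    (ContinuousMap.const I (1 : ℝ), ContinuousMap.const I b0, ContinuousMap.const I (1 / p : ℝ))
  obtain ⟨δ, hδ, hu⟩ := Metric.eventually_nhds_iff.1 hu
  have h1 : ∀ᶠ s in 𝓝 (0 : ℝ), ContDiffAt ℝ ω Y s ∧ dist (Y s) (Y 0) < δ ∧ dist s 0 < δ :=
    (hY.eventually (by simp)).and ((Metric.tendsto_nhds.1 hY.continuousAt δ hδ).and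
      (Metric.ball_mem_nhds 0 hδ))
  obtain ⟨ε, hε, h1⟩ := Metric.eventually_nhds_iff.1 h1
  simp only [dist_zero_right, Real.norm_eq_abs, hY0] at h1
  have eqn : ∀ s, |s| < ε → Y s - Phi p (s, Y s) =
      (ContinuousMap.const I (1 : ℝ), ContinuousMap.const I b0, ContinuousMap.const I (1 / p : ℝ)) := by
    intro s hs
    refine (hu (y := (s, Y s)) ?_).2 rfl
    rw [Prod.dist_eq]
    exact max_lt (by simpa using (h1 hs).2.2) (h1 hs).2.1
  have sc : ∀ s, |s| < ε → ∀ l : I,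
      Y (l * s) = (SS l (Y s).1, SS l (Y s).2.1, SS l (Y s).2.2) := by
    intro s hs l
    refine (hu (y := (l * s, SS l (Y s).1, SS l (Y s).2.1, SS l (Y s).2.2)) ?_).1 ?_
    · have h2 := (h1 hs).2.1
      rw [Prod.dist_eq, Prod.dist_eq, max_lt_iff, max_lt_iff] at h2
      rw [Prod.dist_eq, Prod.dist_eq, Prod.dist_eq]
      refine max_lt ?_ (max_lt ((SS_dist _ _ _).trans_lt h2.1)
        (max_lt ((SS_dist _ _ _).trans_lt h2.2.1) ((SS_dist _ _ _).trans_lt h2.2.2)))
      simp only [dist_zero_right, Real.norm_eq_abs, abs_mul, abs_of_nonneg l.2.1]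
      exact (mul_le_of_le_one_left (abs_nonneg _) l.2.2).trans_lt (h1 hs).2.2
    · have e := eqn s hs
      simp only [Phi_scale]
      have e1 := congrArg (fun z => SS l z.1) e
      have e2 := congrArg (fun z => SS l z.2.1) e
      have e3 := congrArg (fun z => SS l z.2.2) e
      exact Prod.ext e1 (Prod.ext e2 e3)
  have ev : ∀ c : (EE × EE × EE) →L[ℝ] EE, ∀ s, |s| < ε →
      ContDiffAt ℝ ω (fun s => c (Y s) 1) s := fun c s hs =>
    ((ContinuousMap.evalCLM ℝ (1 : I) : EE →L[ℝ] ℝ) ∘L c).contDiff.contDiffAt.comp s (h1 hs).1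
  have pa : ∀ s, |s| < ε → ∀ l : I, (Y s).1 l = (Y (l * s)).1 1 := fun s hs l => by
    rw [sc s hs l]; simp [SS]
  have pb : ∀ s, |s| < ε → ∀ l : I, (Y s).2.1 l = (Y (l * s)).2.1 1 := fun s hs l => by
    rw [sc s hs l]; simp [SS]
  have pc : ∀ s, |s| < ε → ∀ l : I, (Y s).2.2 l = (Y (l * s)).2.2 1 := fun s hs l => by
    rw [sc s hs l]; simp [SS]
  have hpr : ∀ u ∈ Set.uIcc (0 : ℝ) 1, (pr u : ℝ) = u := fun u hu => by
    rw [Set.uIcc_of_le zero_le_one] at hu
    rw [pr, Set.projIcc_of_mem _ hu]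
  refine ⟨ε, hε, fun s => (Y s).1 1, fun s => (Y s).2.1 1, fun s => (Y s).2.2 1, by simp [hY0],
    by simp [hY0], fun s hs => ⟨ev (.fst ℝ _ _) s hs, ev ((.fst ℝ _ _) ∘L (.snd ℝ _ _)) s hs,
      ev ((.snd ℝ _ _) ∘L (.snd ℝ _ _)) s hs, ?_⟩, fun s hs => ?_, fun s hs => ?_⟩
  · have e := congrArg (fun z => z.1 1) (eqn s hs)
    simp only [Phi, Prod.fst_sub, ContinuousMap.sub_apply, ContinuousMap.mul_apply,
      ContinuousMap.smul_apply, TT_apply, io, ContinuousMap.coe_mk, ContinuousMap.const_apply,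
      mul_one, smul_eq_mul, Set.Icc.coe_one] at e
    rw [sub_eq_iff_eq_add'] at e
    rw [add_comm] at e
    refine e.trans ?_
    congr 2
    refine intervalIntegral.integral_congr fun u hu => ?_
    simp only [pa s hs (pr u), pb s hs (pr u), hpr u hu]
    simp
    ring
  · have e := congrArg (fun z => z.2.1 1) (eqn s hs)
    have ea := fun l => congrArg (fun z => z.1 l) (eqn s hs)
    simp only [Phi, Prod.fst_sub, Prod.snd_sub, ContinuousMap.sub_apply,
      ContinuousMap.const_apply, ContinuousMap.mul_apply] at e ea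
    rw [TT_apply, sub_eq_iff_eq_add] at e
    refine e.trans ?_
    congr 1
    refine intervalIntegral.integral_congr fun u hu => ?_
    have := ea (pr u)
    simp only [mul_one, ContinuousMap.mul_apply, ContinuousMap.add_apply, ContinuousMap.smul_apply,
      ContinuousMap.sub_apply, io, ContinuousMap.coe_mk, smul_eq_mul] at this ⊢
    simp only [pa s hs (pr u), pb s hs (pr u), pc s hs (pr u), hpr u hu] at this ⊢
    generalize (TT 0 _) (pr u) = J at this ⊢
    rw [sub_eq_iff_eq_add] at this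
    have e5 : (Y (u * s)).1 1 - 1 = s * u * J := by linarith
    rw [e5, Hf]
    push_cast
    ring
  · have e := congrArg (fun z => z.2.2 1) (eqn s hs)
    simp only [Phi, Prod.snd_sub, ContinuousMap.sub_apply, ContinuousMap.mul_apply,
      ContinuousMap.smul_apply, io, ContinuousMap.coe_mk, ContinuousMap.const_apply,
      mul_one, smul_eq_mul, Set.Icc.coe_one] at e
    linarith

end Vale.Agent.P252
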