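import Vale.Agent.P252.Calc

namespace Vale.Agent.P252

open Matrix
open scoped ContDiff

noncomputable def Qf (p s a b : ℝ) : ℝ := (2 * p + 3) * a + 2 * s * a ^ 2 - (p ^ 2 - 6 * s * a) * b

/-- The profile functions. -/
structure Prof (p : ℕ) (α β F : ℝ → ℝ) : Prop where
  sm : ∀ s, 0 ≤ s → ContDiffAt ℝ ∞ F s
  F0 : F 0 = 1
  apos : ∀ s, 0 ≤ s → 0 < α s
  bpos : ∀ s, 0 ≤ s → 0 < 1 + s * β s
  Fpos : ∀ s, 0 ≤ s → 0 < F s
  dF : ∀ s, 0 ≤ s → HasDerivAt F (F s * α s) s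
  da : ∀ s, 0 ≤ s → HasDerivAt α (α s * (β s - α s) / 2) s
  db : ∀ s, 0 ≤ s → HasDerivAt (fun s => 1 + s * β s)
    ((1 + s * β s) * Qf p s (α s) (β s) / (2 * (p + 2 * s * α s))) s

variable {p : ℕ} {α β F : ℝ → ℝ}

noncomputable def uu (F : ℝ → ℝ) (x : Fin (p + 1) → ℝ) : ℝ := √(F (sN x) + x 0 * x 0)

lemma Prof.vpos (h : Prof p α β F) (x : Fin (p + 1) → ℝ) : 0 < F (sN x) + x 0 * x 0 :=
  add_pos_of_pos_of_nonneg (h.Fpos _ (sq_nonneg' x)) (mul_self_nonneg _)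

lemma Prof.upos (h : Prof p α β F) (x : Fin (p + 1) → ℝ) : 0 < uu F x :=
  Real.sqrt_pos.2 (h.vpos x)

lemma Prof.usq (h : Prof p α β F) (x : Fin (p + 1) → ℝ) : F (sN x) = uu F x ^ 2 - x 0 ^ 2 := by
  rw [uu, Real.sq_sqrt (h.vpos x).le]; ring

lemma Prof.smooth (h : Prof p α β F) : ContDiff ℝ ∞ (uu (p := p) F) := by
  refine ContDiff.sqrt ?_ fun x => (h.vpos x).ne'
  refine ContDiff.add ?_ ((contDiff_apply ℝ ℝ 0).mul (contDiff_apply ℝ ℝ 0))
  rw [contDiff_iff_contDiffAt]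
  exact fun x => (h.sm _ (sq_nonneg' x)).comp x contDiff_sq.contDiffAt

lemma Prof.DF (h : Prof p α β F) (x : Fin (p + 1) → ℝ) :
    D1 (fun z => F (sN z)) x (2 * (F (sN x) * α (sN x))) 0 :=
  ((D1.sN x).comp (h.dF _ (sq_nonneg' x))).congr (by ring) (by ring)

lemma Prof.Da (h : Prof p α β F) (x : Fin (p + 1) → ℝ) :
    D1 (fun z => α (sN z)) x (α (sN x) * (β (sN x) - α (sN x))) 0 :=
  ((D1.sN x).comp (h.da _ (sq_nonneg' x))).congr (by ring) (by ring)

lemma Prof.Du (h : Prof p α β F) (x : Fin (p + 1) → ℝ) :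
    D1 (uu F) x (F (sN x) * α (sN x) * (uu F x)⁻¹) (x 0 * (uu F x)⁻¹) := by
  have h1 := (h.DF x).add ((D1.t x).mul (D1.t x))
  have h2 := h1.comp (Real.hasDerivAt_sqrt (h.vpos x).ne')
  have := (h.upos x).ne'
  refine D1.congr h2 ?_ ?_ <;> change 1 / (2 * uu F x) * _ = _ <;> field_simp <;> ring

lemma Prof.Dui (h : Prof p α β F) (x : Fin (p + 1) → ℝ) :
    D1 (fun z => (uu F z)⁻¹) x (-(F (sN x) * α (sN x)) / uu F x ^ 3) (-(x 0) / uu F x ^ 3) := by
  have := (h.upos x).ne'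
  refine D1.congr ((h.Du x).comp (hasDerivAt_inv this)) ?_ ?_ <;> field_simp

lemma Prof.hess_u (h : Prof p α β F) (x : Fin (p + 1) → ℝ) :
    hess (uu F) x = mat (yv x) ev (F (sN x) * α (sN x) / uu F x)
      (F (sN x) * α (sN x) * (α (sN x) + β (sN x)) / uu F x - (F (sN x) * α (sN x)) ^ 2 / uu F x ^ 3)
      (-(F (sN x) * α (sN x) * x 0) / uu F x ^ 3)
      (F (sN x) / uu F x ^ 3 - F (sN x) * α (sN x) / uu F x) := by
  have hu := (h.upos x).ne'
  have ha := (((h.DF x).mul (h.Da x)).mul (h.Dui x)).congr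
    (a' := F (sN x) * α (sN x) * (α (sN x) + β (sN x)) / uu F x -
      (F (sN x) * α (sN x)) ^ 2 / uu F x ^ 3)
    (b' := -(F (sN x) * α (sN x) * x 0) / uu F x ^ 3) (by field_simp; ring) (by field_simp; ring)
  have hb := ((D1.t x).mul (h.Dui x)).congr (a' := -(F (sN x) * α (sN x) * x 0) / uu F x ^ 3)
    (b' := F (sN x) / uu F x ^ 3) (by field_simp; ring) (by rw [h.usq x]; field_simp; ring)
  rw [hess_eq h.Du ha hb]
  rfl

lemma Prof.det_u (h : Prof p α β F) (x : Fin (p + 1) → ℝ) :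
    (hess (uu F) x).det =
      F (sN x) ^ (p + 1) * α (sN x) ^ p * (1 + sN x * β (sN x)) / uu F x ^ (p + 3) := by
  have hu := (h.upos x).ne'
  have hF := (h.Fpos _ (sq_nonneg' x)).ne'
  have ha := (h.apos _ (sq_nonneg' x)).ne'
  rw [h.hess_u, mat_det (s := sN x) rfl (yv_ev x) ev_ev (by positivity)]
  have e : x 0 ^ 2 = uu F x ^ 2 - F (sN x) := by rw [h.usq x]; ring
  have e2 : -(F (sN x) * α (sN x) * x 0) / uu F x ^ 3 * (-(F (sN x) * α (sN x) * x 0) / uu F x ^ 3)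
      = (F (sN x) * α (sN x)) ^ 2 * (uu F x ^ 2 - F (sN x)) / uu F x ^ 6 := by
    rw [← e]; field_simp
  rw [e2, div_pow, mul_pow]
  field_simp
  ring

lemma Prof.inv_u (h : Prof p α β F) (x : Fin (p + 1) → ℝ) :
    (hess (uu F) x)⁻¹ = mat (yv x) ev (uu F x / (F (sN x) * α (sN x)))
      (-(uu F x * β (sN x)) / (F (sN x) * α (sN x) * (1 + sN x * β (sN x))))
      (uu F x * x 0 / (F (sN x) * (1 + sN x * β (sN x))))
      (uu F x * (1 + (1 + sN x * β (sN x) + sN x * α (sN x)) * x 0 ^ 2 /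
        (F (sN x) * (1 + sN x * β (sN x)))) - uu F x / (F (sN x) * α (sN x))) := by
  have hu := (h.upos x).ne'
  have hF := (h.Fpos _ (sq_nonneg' x)).ne'
  have ha := (h.apos _ (sq_nonneg' x)).ne'
  have hb := (h.bpos _ (sq_nonneg' x)).ne'
  apply inv_eq_right_inv
  rw [h.hess_u, mat_mul (s := sN x) rfl (yv_ev x) ev_ev]
  have e := h.usq x
  generalize uu F x = u at *
  generalize α (sN x) = a at *
  generalize β (sN x) = b at *
  generalize F (sN x) = f at *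
  generalize sN x = s at *
  generalize x 0 = t at *
  have z : ∀ (c1 c2 c3 c4 c5 : ℝ) (A B C D : Matrix (Fin (p + 1)) (Fin (p + 1)) ℝ), c1 = 1 →
      c2 = 0 → c3 = 0 → c4 = 0 → c5 = 0 →
      c1 • (1 : Matrix (Fin (p + 1)) (Fin (p + 1)) ℝ) + c2 • A + c3 • B + c4 • C + c5 • D = 1 := by
    rintro _ _ _ _ _ A B C D rfl rfl rfl rfl rfl
    simp
  have hb' : 1 + b * s ≠ 0 := by rwa [mul_comm]
  apply z <;> field_simp <;> (try rw [e]) <;> ring

lemma Prof.posDef (h : Prof p α β F) (x : Fin (p + 1) → ℝ) : (hess (uu F) x).PosDef := by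
  have hu := h.upos x
  have hF := h.Fpos _ (sq_nonneg' x)
  have ha := h.apos _ (sq_nonneg' x)
  have hb := h.bpos _ (sq_nonneg' x)
  rw [posDef_iff_dotProduct_mulVec]
  refine ⟨?_, fun v hv => ?_⟩
  · rw [h.hess_u]
    exact (conjTranspose_eq_transpose_of_trivial _).trans (mat_transpose _ _ _ _ _ _)
  · rw [star_trivial, h.hess_u, mat_quad]
    have h0 : ev ⬝ᵥ v = v 0 := by simp [dotProduct, ev]
    have h1 : v ⬝ᵥ v = sN v + v 0 ^ 2 := by
      simp [sN, dotProduct, yv, Fin.sum_univ_succ]; ring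
    have h2 : yv x ⬝ᵥ v = yv x ⬝ᵥ yv v := by
      simp [dotProduct, yv, Fin.sum_univ_succ]
    have h3 : (yv x ⬝ᵥ v) ^ 2 ≤ sN x * sN v := by
      rw [h2]
      have := Finset.sum_mul_sq_le_sq_mul_sq Finset.univ (yv x) (yv v)
      simpa [sN, dotProduct, pow_two] using this
    have h4 : 0 < sN v + v 0 ^ 2 := by
      rw [← h1]
      exact lt_of_le_of_ne (Finset.sum_nonneg fun _ _ => mul_self_nonneg _)
        (fun h => hv (dotProduct_self_eq_zero.1 h.symm))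
    have hs := sq_nonneg' x
    have hr := sq_nonneg' v
    rw [h0, h1]
    have e := h.usq x
    generalize uu F x = u at *
    generalize α (sN x) = a at *
    generalize β (sN x) = b at *
    generalize F (sN x) = f at *
    generalize sN x = s at *
    generalize x 0 = t at *
    generalize yv x ⬝ᵥ v = η at *
    generalize sN v = ρ at *
    generalize v 0 = w at *
    have key : f * a / u * (ρ + w ^ 2) + (f * a * (a + b) / u - (f * a) ^ 2 / u ^ 3) * η ^ 2 +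
        2 * (-(f * a * t) / u ^ 3) * (η * w) + (f / u ^ 3 - f * a / u) * w ^ 2 =
        f / u ^ 3 * ((w - a * t * η) ^ 2 + u ^ 2 * a * (ρ + b * η ^ 2)) := by
      field_simp
      rw [e]; ring
    rw [key]
    refine mul_pos (by positivity) ?_
    rcases hr.lt_or_eq with hr | hr
    · have : 0 < ρ + b * η ^ 2 := by
        rcases le_total 0 b with hb0 | hb0
        · positivity
        · nlinarith [mul_pos hr hb]
      positivity
    · subst hr
      have hη : η = 0 := by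
        have : η ^ 2 ≤ 0 := by simpa using h3
        exact pow_eq_zero_iff (two_ne_zero) |>.1 (le_antisymm this (sq_nonneg _))
      subst hη
      simpa using h4

noncomputable def WW (p : ℕ) (α β F : ℝ → ℝ) (s : ℝ) : ℝ :=
  (F s ^ (p + 1) * α s ^ p * (1 + s * β s)) ^ (-(((p : ℝ) + 2) / ((p : ℝ) + 3)))

noncomputable def RR (p : ℕ) (α β : ℝ → ℝ) (s : ℝ) : ℝ :=
  -((p : ℝ) + 2) / 2 * (α s * (p - 1 + 2 * (s * α s) + 2 * (1 + s * β s)) / (p + 2 * (s * α s)))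

noncomputable def dR (p s a b : ℝ) : ℝ :=
  -(p + 2) / 2 * (((a * (b - a) / 2 * (p - 1 + 2 * (s * a) + 2 * (1 + s * b)) +
    a * (2 * (a + s * (a * (b - a) / 2)) + 2 * ((1 + s * b) * Qf p s a b / (2 * (p + 2 * s * a))))) *
      (p + 2 * (s * a)) - a * (p - 1 + 2 * (s * a) + 2 * (1 + s * b)) *
        (2 * (a + s * (a * (b - a) / 2)))) / (p + 2 * (s * a)) ^ 2)

lemma Prof.Ppos (h : Prof p α β F) (hp : 1 ≤ p) {s : ℝ} (hs : 0 ≤ s) : 0 < p + 2 * (s * α s) := by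
  have := h.apos s hs
  have : (0 : ℝ) < p := by exact_mod_cast hp
  positivity

lemma Prof.dRR (h : Prof p α β F) (hp : 1 ≤ p) {s : ℝ} (hs : 0 ≤ s) :
    HasDerivAt (RR p α β) (dR p s (α s) (β s)) s := by
  have h1 : HasDerivAt (fun s => s * α s) (α s + s * (α s * (β s - α s) / 2)) s :=
    ((hasDerivAt_id' s).mul (h.da s hs)).congr_deriv (by ring)
  have h2 := ((h1.const_mul 2).const_add ((p : ℝ) - 1)).add ((h.db s hs).const_mul 2)
  have h3 := (h1.const_mul 2).const_add (p : ℝ)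
  exact (((h.da s hs).mul h2).div h3 (h.Ppos hp hs).ne').const_mul (-((p : ℝ) + 2) / 2)

lemma Prof.dWW (h : Prof p α β F) (hp : 1 ≤ p) {s : ℝ} (hs : 0 ≤ s) :
    HasDerivAt (WW p α β F) (WW p α β F s * RR p α β s) s := by
  have hF := h.Fpos s hs
  have ha := h.apos s hs
  have hb := h.bpos s hs
  have hP := h.Ppos hp hs
  have hD : 0 < F s ^ (p + 1) * α s ^ p * (1 + s * β s) := by positivity
  have h1 := ((((h.dF s hs).fun_pow (p + 1)).mul ((h.da s hs).fun_pow p)).mul (h.db s hs)).rpow_const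
    (p := -(((p : ℝ) + 2) / ((p : ℝ) + 3))) (Or.inl hD.ne')
  refine HasDerivAt.congr_deriv h1 ?_
  obtain ⟨q, rfl⟩ : ∃ q, p = q + 1 := ⟨p - 1, by omega⟩
  simp only [Pi.mul_apply]
  rw [Real.rpow_sub_one hD.ne']
  unfold WW RR Qf
  generalize (F s ^ (q + 1 + 1) * α s ^ (q + 1) * (1 + s * β s)) ^
    (-((((q + 1 : ℕ) : ℝ) + 2) / (((q + 1 : ℕ) : ℝ) + 3))) = W
  simp only [Nat.add_sub_cancel]
  push_cast at hP ⊢
  have hP' : (q : ℝ) + 1 + 2 * s * α s ≠ 0 := by rw [mul_assoc]; exact hP.ne'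
  have hP'' := hP.ne'
  have hb' : 1 + β s * s ≠ 0 := by rw [mul_comm]; exact hb.ne'
  field_simp
  ring

lemma Prof.w_eq (h : Prof p α β F) (hp : 1 ≤ p) (x : Fin (p + 1) → ℝ) :
    (hess (uu F) x).det ^ (-((((p + 1 : ℕ) : ℝ) + 1) / (((p + 1 : ℕ) : ℝ) + 2))) =
      uu F x ^ (p + 2) * WW p α β F (sN x) := by
  have hu := h.upos x
  have hF := h.Fpos _ (sq_nonneg' x)
  have ha := h.apos _ (sq_nonneg' x)
  have hb := h.bpos _ (sq_nonneg' x)
  have e : -((((p + 1 : ℕ) : ℝ) + 1) / (((p + 1 : ℕ) : ℝ) + 2)) =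
      -(((p : ℝ) + 2) / ((p : ℝ) + 3)) := by push_cast; ring
  rw [h.det_u, e, Real.div_rpow (by positivity) (by positivity), WW, ← Real.rpow_natCast (uu F x),
    ← Real.rpow_mul hu.le, ← Real.rpow_natCast (uu F x), div_eq_mul_inv, ← Real.rpow_neg hu.le,
    mul_comm]
  congr 2
  push_cast
  field_simp

theorem Prof.affine (h : Prof p α β F) (hp : 1 ≤ p) : AffineMaximal (uu (p := p) F) := by
  intro x
  have hw : (fun y : Fin (p + 1) → ℝ =>
      (hess (uu F) y).det ^ (-((((p + 1 : ℕ) : ℝ) + 1) / (((p + 1 : ℕ) : ℝ) + 2)))) =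
      fun y => uu F y ^ (p + 2) * WW p α β F (sN y) := funext (h.w_eq hp)
  obtain ⟨q, hq⟩ : ∃ q, p = q + 1 := ⟨p - 1, by omega⟩
  have DW : ∀ z : Fin (p + 1) → ℝ, D1 (fun y => WW p α β F (sN y)) z
      (2 * (WW p α β F (sN z) * RR p α β (sN z))) 0 := fun z =>
    ((D1.sN z).comp (h.dWW hp (sq_nonneg' z))).congr (by ring) (by ring)
  have DR : ∀ z : Fin (p + 1) → ℝ, D1 (fun y => RR p α β (sN y)) z
      (2 * dR p (sN z) (α (sN z)) (β (sN z))) 0 := fun z =>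
    ((D1.sN z).comp (h.dRR hp (sq_nonneg' z))).congr (by ring) (by ring)
  have Dw : ∀ z : Fin (p + 1) → ℝ, D1 (fun y => uu F y ^ (p + 2) * WW p α β F (sN y)) z
      (uu F z ^ p * WW p α β F (sN z) * (((p : ℝ) + 2) * (F (sN z) * α (sN z)) +
        2 * (uu F z * uu F z * RR p α β (sN z))))
      (uu F z ^ p * WW p α β F (sN z) * (((p : ℝ) + 2) * z 0)) := fun z => by
    have hu := (h.upos z).ne'
    refine (((h.Du z).comp (hasDerivAt_pow (p + 2) _)).mul (DW z)).congr ?_ ?_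
    · rw [show p + 2 - 1 = p + 1 from rfl]; push_cast; field_simp; ring
    · rw [show p + 2 - 1 = p + 1 from rfl]; push_cast; field_simp; ring
  have hu := (h.upos x).ne'
  have hF := (h.Fpos _ (sq_nonneg' x)).ne'
  have ha := (h.apos _ (sq_nonneg' x)).ne'
  have hb := (h.bpos _ (sq_nonneg' x)).ne'
  have hP := (h.Ppos hp (sq_nonneg' x)).ne'
  have Dg : D1 (fun z => uu F z ^ p * WW p α β F (sN z)) x
      (uu F x ^ p * WW p α β F (sN x) * (p * (F (sN x) * α (sN x)) / uu F x ^ 2 +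
        2 * RR p α β (sN x)))
      (uu F x ^ p * WW p α β F (sN x) * (p * x 0 / uu F x ^ 2)) := by
    refine (((h.Du x).comp (hasDerivAt_pow p _)).mul (DW x)).congr ?_ ?_
    · subst hq; rw [Nat.add_sub_cancel]; field_simp; ring
    · subst hq; rw [Nat.add_sub_cancel]; field_simp; ring
  have Db := Dg.mul ((D1.const ((p : ℝ) + 2) x).mul (D1.t x))
  have Da := Dg.mul (((D1.const ((p : ℝ) + 2) x).mul ((h.DF x).mul (h.Da x))).add
    ((D1.const 2 x).mul (((h.Du x).mul (h.Du x)).mul (DR x))))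
  have hh := hess_eq Dw Da (Db.congr (by field_simp; ring) rfl)
  rw [hw, hh, h.inv_u]
  simp only [Matrix.smul_apply, smul_eq_mul, mul_assoc (hess (uu F) x).det, ← Finset.mul_sum]
  rw [mat_pair (s := sN x) rfl (yv_ev x) ev_ev]
  refine mul_eq_zero_of_right _ ?_
  have e := h.usq x
  unfold RR dR Qf
  generalize uu F x ^ p = U
  generalize WW p α β F (sN x) = W
  generalize uu F x = u at *
  generalize α (sN x) = a at *
  generalize β (sN x) = b at *
  generalize F (sN x) = f at *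
  generalize sN x = s at *
  generalize x 0 = t at *
  push_cast
  generalize (p : ℝ) = P at *
  obtain ⟨B, hB⟩ : ∃ B, B = 1 + s * b := ⟨_, rfl⟩
  obtain ⟨N, hN⟩ : ∃ N, N = P + 2 * (s * a) := ⟨_, rfl⟩
  have hN2 : P + 2 * s * a = N := by rw [hN]; ring
  rw [← hB] at hb
  rw [← hN] at hP
  simp only [← hB, ← hN, hN2]
  field_simp
  rw [e, hB, hN]
  ring

theorem Prof.not_quad (h : Prof p α β F) : ¬ ∃ (A : Matrix (Fin (p + 1)) (Fin (p + 1)) ℝ)
    (b : Fin (p + 1) → ℝ) (c : ℝ), ∀ x, uu F x = 1 / 2 * (x ⬝ᵥ A *ᵥ x) + b ⬝ᵥ x + c := by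
  rintro ⟨A, b, c, hx⟩
  have key : ∀ t : ℝ, √(1 + t * t) = 1 / 2 * (A 0 0 * t ^ 2) + b 0 * t + c := by
    intro t
    have h1 := hx (Pi.single 0 t)
    have h2 : sN (Pi.single (0 : Fin (p + 1)) t) = 0 := by
      simp [sN, dotProduct, yv, Fin.sum_univ_succ]
    rw [uu, h2, h.F0] at h1
    simp at h1
    rw [h1]; ring
  have k0 := key 0
  have k1 := key 1
  have k2 := key (-1)
  have k3 := key 2
  norm_num at k0 k1 k2 k3
  have e : √5 = 4 * √2 - 3 := by linarith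
  have s2 := Real.sq_sqrt (show (0 : ℝ) ≤ 2 by norm_num)
  have s5 := Real.sq_sqrt (show (0 : ℝ) ≤ 5 by norm_num)
  rw [e] at s5
  nlinarith

end Vale.Agent.P252
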