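import Vale.Agent.P252.Local
import Vale.Agent.P252.Pde

namespace Vale.Agent.P252

open scoped ContDiff Topology
open Filter Set

lemma ftc {g : ℝ → ℝ} {U : Set ℝ} (hU : IsOpen U) (hg : ContinuousOn g U) {s : ℝ}
    (hs : uIcc 0 s ⊆ U) : HasDerivAt (fun t => ∫ x in (0 : ℝ)..t, g x) (g s) s :=
  intervalIntegral.integral_hasDerivAt_right ((hg.mono hs).intervalIntegrable)
    (hg.stronglyMeasurableAtFilter hU s (hs right_mem_uIcc))
    (hg.continuousAt (hU.mem_nhds (hs right_mem_uIcc)))

lemma local_ode (p : ℕ) (hp : 1 ≤ p) : ∃ ε > 0, ∃ α β : ℝ → ℝ, α 0 = 1 ∧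
    (∀ s, |s| < ε → ContDiffAt ℝ ω α s ∧ ContDiffAt ℝ ω β s ∧
      HasDerivAt α (α s * (β s - α s) / 2) s) ∧
    ∀ s, 0 ≤ s → s < ε → HasDerivAt (fun s => 1 + s * β s)
      ((1 + s * β s) * Qf p s (α s) (β s) / (2 * (p + 2 * s * α s))) s := by
  have hp0 : (0 : ℝ) < p := by exact_mod_cast hp
  obtain ⟨ε, hε, α, β, γ, a0, b0, h1, h2, h3⟩ :=
    local_int (p : NNReal) ((2 * p + 3) / (2 * p) / (p / 2 + 1))
  simp only [NNReal.coe_natCast] at h2 h3
  have hU : IsOpen {s : ℝ | |s| < ε} := isOpen_lt continuous_abs continuous_const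
  have hsub : ∀ s, |s| < ε → uIcc 0 s ⊆ {s : ℝ | |s| < ε} := fun s hs x hx => by
    have := abs_sub_left_of_mem_uIcc hx
    simp only [sub_zero] at this
    exact this.trans_lt hs
  have ca : ContinuousOn α {s : ℝ | |s| < ε} := fun s hs =>
    (h1 s hs).1.continuousAt.continuousWithinAt
  have cb : ContinuousOn β {s : ℝ | |s| < ε} := fun s hs =>
    (h1 s hs).2.1.continuousAt.continuousWithinAt
  have cc : ContinuousOn γ {s : ℝ | |s| < ε} := fun s hs =>
    (h1 s hs).2.2.1.continuousAt.continuousWithinAt
  refine ⟨ε, hε, α, β, a0, fun s hs => ⟨(h1 s hs).1, (h1 s hs).2.1, ?_⟩, fun s hs0 hs => ?_⟩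
  · have hd := (ftc (g := fun x => α x * (β x - α x) / 2) hU
      ((ca.mul (cb.sub ca)).div_const 2) (hsub s hs)).const_add 1
    refine hd.congr_of_eventuallyEq ?_
    filter_upwards [hU.mem_nhds hs] with t ht
    rw [(h1 t ht).2.2.2, intervalIntegral.mul_integral_comp_mul_right
      (f := fun x => α x * (β x - α x) / 2)]
    simp
  · have hs' : |s| < ε := by rwa [abs_of_nonneg hs0]
    have db := ((h1 s hs').2.1.differentiableAt (by simp)).hasDerivAt
    set G : ℝ → ℝ := fun x => (2 * p + 3) / (2 * p) * α x + x * Hf p x (α x) (β x) (γ x) with hG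
    have cG : ContinuousOn G {s : ℝ | |s| < ε} := by
      rw [hG]; unfold Hf
      have ci : ContinuousOn (fun x : ℝ => x) {s : ℝ | |s| < ε} := continuousOn_id
      fun_prop
    have cr : Continuous fun u : ℝ => u ^ ((p : ℝ) / 2) := Real.continuous_rpow_const (by positivity)
    have key : s * deriv β s = G s - (p / 2 + 1) * β s := by
      rcases hs0.lt_or_eq with hs0 | rfl
      · have hK := ftc (g := fun x => x ^ ((p : ℝ) / 2) * G x) hU (cr.continuousOn.mul cG) (hsub s hs')
        have hE : (fun t => t * t ^ ((p : ℝ) / 2) * β t) =ᶠ[𝓝 s]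
            fun t => ∫ x in (0 : ℝ)..t, x ^ ((p : ℝ) / 2) * G x := by
          filter_upwards [hU.mem_nhds hs', Ioi_mem_nhds hs0] with t ht ht0
          have e1 := intervalIntegral.mul_integral_comp_mul_right (a := 0) (b := 1) (c := t)
            (f := fun x => x ^ ((p : ℝ) / 2) * G x)
          rw [zero_mul, one_mul] at e1
          rw [← e1, mul_assoc]
          congr 1
          have i1 : IntervalIntegrable (fun u : ℝ => u ^ ((p : ℝ) / 2) * G (u * t))
              MeasureTheory.volume 0 1 := by
            refine ContinuousOn.intervalIntegrable (cr.continuousOn.mul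
              (cG.comp (by fun_prop) fun u hu => ?_))
            rw [uIcc_of_le zero_le_one] at hu
            simp only [mem_setOf_eq, abs_mul, abs_of_nonneg hu.1]
            exact (mul_le_of_le_one_left (abs_nonneg _) hu.2).trans_lt ht
          have i2 : IntervalIntegrable (fun u : ℝ => (2 * p + 3) / (2 * p) * u ^ ((p : ℝ) / 2))
              MeasureTheory.volume 0 1 := (continuous_const.mul cr).intervalIntegrable _ _
          have e2 : β t = ∫ u in (0 : ℝ)..1, u ^ ((p : ℝ) / 2) * G (u * t) := by
            rw [h2 t ht, intervalIntegral.integral_congr (g := fun u : ℝ =>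
              u ^ ((p : ℝ) / 2) * G (u * t) - (2 * p + 3) / (2 * p) * u ^ ((p : ℝ) / 2))
              (fun u _ => by simp only [hG]; ring), intervalIntegral.integral_sub i1 i2,
              intervalIntegral.integral_const_mul, integral_rpow (Or.inl (by linarith [hp0])),
              Real.one_rpow, Real.zero_rpow (by positivity)]
            ring
          rw [e2, ← intervalIntegral.integral_const_mul]
          refine intervalIntegral.integral_congr fun u hu => ?_
          rw [uIcc_of_le zero_le_one] at hu
          rw [Real.mul_rpow hu.1 (le_of_lt ht0)]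
          ring
        have hL := ((hasDerivAt_id' s).mul
          (Real.hasDerivAt_rpow_const (p := (p : ℝ) / 2) (Or.inl hs0.ne'))).mul db
        have e := hL.unique (hK.congr_of_eventuallyEq hE)
        have hr : 0 < s ^ ((p : ℝ) / 2) := Real.rpow_pos_of_pos hs0 _
        simp only [Pi.mul_apply] at e
        rw [Real.rpow_sub_one hs0.ne'] at e
        apply mul_left_cancel₀ hr.ne'
        rw [mul_sub, ← e]
        field_simp
        ring
      · simp only [hG, a0, b0]
        field_simp
        ring
    have hd := ((hasDerivAt_id' s).mul db).const_add 1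
    refine hd.congr_deriv ?_
    have e3 : γ s * (p + 2 * s * α s) = 1 := by
      have := h3 s hs'
      field_simp at this
      linarith
    have hP : (p + 2 * s * α s) ≠ 0 := right_ne_zero_of_mul_eq_one e3
    have e4 : γ s = 1 / (p + 2 * s * α s) := by rw [eq_div_iff hP, e3]
    rw [key]
    simp only [hG, Hf, Qf, e4]
    obtain ⟨N, hN⟩ : ∃ N, N = p + 2 * s * α s := ⟨_, rfl⟩
    rw [← hN] at hP ⊢
    field_simp
    rw [hN]
    ring

end Vale.Agent.P252
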