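import Vale.Agent.P252.Local2
import Vale.Agent.P252.Global

namespace Vale.Agent.P252

open scoped ContDiff Topology
open Filter Set

lemma glue {f g : ℝ → ℝ} {s0 d : ℝ} (h : f s0 = g s0) (hf : HasDerivAt f d s0)
    (hg : HasDerivAt g d s0) : HasDerivAt (fun s => if s ≤ s0 then f s else g s) d s0 := by
  have h1 : HasDerivWithinAt (fun s => if s ≤ s0 then f s else g s) d (Iic s0) s0 :=
    hf.hasDerivWithinAt.congr (fun s hs => if_pos hs) (if_pos le_rfl)
  have h2 : HasDerivWithinAt (fun s => if s ≤ s0 then f s else g s) d (Ici s0) s0 :=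
    hg.hasDerivWithinAt.congr (fun s hs => by
      rcases (mem_Ici.1 hs).lt_or_eq with h' | rfl
      · exact if_neg (not_le.2 h')
      · rw [if_pos le_rfl, h]) (by rw [if_pos le_rfl, h])
  have := h1.union h2
  rwa [Iic_union_Ici, hasDerivWithinAt_univ] at this

lemma glue' {f g : ℝ → ℝ} {s0 s d : ℝ} (h : f s0 = g s0) (hf : s ≤ s0 → HasDerivAt f d s)
    (hg : s0 ≤ s → HasDerivAt g d s) : HasDerivAt (fun s => if s ≤ s0 then f s else g s) d s := by
  rcases lt_trichotomy s s0 with h' | rfl | h'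
  · refine (hf h'.le).congr_of_eventuallyEq ?_
    filter_upwards [Iio_mem_nhds h'] with t ht using if_pos (le_of_lt ht)
  · exact glue h (hf le_rfl) (hg le_rfl)
  · refine (hg h'.le).congr_of_eventuallyEq ?_
    filter_upwards [Ioi_mem_nhds h'] with t ht using if_neg (not_le.2 ht)

lemma smooth_ode {E : Type*} [NormedAddCommGroup E] [NormedSpace ℝ E] {y : ℝ → E} {G : ℝ × E → E}
    {U : Set ℝ} (hU : IsOpen U) (hG : ∀ s ∈ U, ContDiffAt ℝ ∞ G (s, y s))
    (hy : ∀ s ∈ U, HasDerivAt y (G (s, y s)) s) : ContDiffOn ℝ ∞ y U := by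
  rw [contDiffOn_infty]
  intro k
  induction k with
  | zero =>
    exact contDiffOn_zero.2 fun s hs => (hy s hs).continuousAt.continuousWithinAt
  | succ k ih =>
    rw [Nat.cast_succ, contDiffOn_succ_iff_deriv_of_isOpen hU]
    refine ⟨fun s hs => (hy s hs).differentiableAt.differentiableWithinAt, by simp, ?_⟩
    refine ContDiffOn.congr (f := fun s => G (s, y s)) (fun s hs => ?_) fun s hs => (hy s hs).deriv
    exact ((hG s hs).of_le (by exact_mod_cast le_top)).comp_contDiffWithinAt s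
      (contDiffWithinAt_id.prodMk (ih s hs))

theorem exists_prof (p : ℕ) (hp : 9 ≤ p) : ∃ α β F, Prof p α β F := by
  have hp' : (9 : ℝ) ≤ p := by exact_mod_cast hp
  obtain ⟨ε, hε, α, β, a0, h1, h2⟩ := local_ode p (by omega)
  have ca := (h1 0 (by simpa)).1.continuousAt
  have cb := (h1 0 (by simpa)).2.1.continuousAt
  have e1 : ∀ᶠ s in 𝓝 (0 : ℝ), 0 < α s := continuousAt_const.eventually_lt ca (by simp [a0])
  have e2 : ∀ᶠ s in 𝓝 (0 : ℝ), 0 < 1 + s * β s :=
    continuousAt_const.eventually_lt (continuousAt_const.add (continuousAt_id.mul cb)) (by simp)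
  have e3 : ∀ᶠ s in 𝓝 (0 : ℝ), s * α s < 9 / 2 :=
    (continuousAt_id.mul ca).eventually_lt continuousAt_const (by simp)
  have e4 : ∀ᶠ s in 𝓝 (0 : ℝ), 1 + s * β s < 7 / 2 :=
    (continuousAt_const.add (continuousAt_id.mul cb)).eventually_lt continuousAt_const
      (by simp; norm_num)
  obtain ⟨δ, hδ, e⟩ := Metric.eventually_nhds_iff.1
    (e1.and (e2.and (e3.and (e4.and (Iio_mem_nhds hε)))))
  simp only [dist_zero_right, Real.norm_eq_abs] at e
  set s0 := δ / 2 with hs0
  have s0p : 0 < s0 := by positivity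
  have e' : ∀ s, 0 ≤ s → s ≤ s0 → 0 < α s ∧ 0 < 1 + s * β s ∧ s * α s < 9 / 2 ∧
      1 + s * β s < 7 / 2 ∧ s < ε := fun s hs hs' => e (by rw [abs_of_nonneg hs]; linarith)
  obtain ⟨k1, k2, k3, k4, k5⟩ := e' s0 s0p.le le_rfl
  obtain ⟨a, b, ha0, hb0, hab⟩ := global_ode hp' (mul_pos s0p k1) k3.le k2 k4.le
  set τ : ℝ → ℝ := fun s => (Real.log s - Real.log s0) / 2 with hτ
  have τ0 : τ s0 = 0 := by simp [hτ]
  have τp : ∀ s, s0 ≤ s → 0 ≤ τ s := fun s hs => by
    have := Real.log_le_log s0p hs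
    simp only [hτ]; linarith
  have dτ : ∀ s, s0 ≤ s → HasDerivAt τ (s⁻¹ / 2) s := fun s hs =>
    ((Real.hasDerivAt_log (s0p.trans_le hs).ne').sub_const _).div_const 2
  set A : ℝ → ℝ := fun s => if s ≤ s0 then α s else a (τ s) / s with hA
  set B : ℝ → ℝ := fun s => if s ≤ s0 then β s else (b (τ s) - 1) / s with hB
  have jA : α s0 = a (τ s0) / s0 := by rw [τ0, ha0]; field_simp
  have jB : β s0 = (b (τ s0) - 1) / s0 := by rw [τ0, hb0]; field_simp; ring
  have A1 : ∀ s, s ≤ s0 → A s = α s := fun s hs => if_pos hs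
  have B1 : ∀ s, s ≤ s0 → B s = β s := fun s hs => if_pos hs
  have A2 : ∀ s, s0 ≤ s → A s = a (τ s) / s := fun s hs => by
    rcases hs.lt_or_eq with h | rfl
    · exact if_neg (not_le.2 h)
    · rw [A1 _ le_rfl, jA]
  have B2 : ∀ s, s0 ≤ s → B s = (b (τ s) - 1) / s := fun s hs => by
    rcases hs.lt_or_eq with h | rfl
    · exact if_neg (not_le.2 h)
    · rw [B1 _ le_rfl, jB]
  have Ap : ∀ s, 0 ≤ s → 0 < A s := fun s hs => by
    rcases le_total s s0 with h | h
    · rw [A1 s h]; exact (e' s hs h).1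
    · rw [A2 s h]; exact div_pos (hab _ (τp s h)).1 (s0p.trans_le h)
  have Bp : ∀ s, 0 ≤ s → 0 < 1 + s * B s := fun s hs => by
    rcases le_total s s0 with h | h
    · rw [B1 s h]; exact (e' s hs h).2.1
    · have := (s0p.trans_le h).ne'
      rw [B2 s h, mul_div_cancel₀ _ this]
      simpa using (hab _ (τp s h)).2.1
  have dA : ∀ s, 0 ≤ s → HasDerivAt A (A s * (B s - A s) / 2) s := fun s hs => by
    refine glue' jA (fun h => ?_) (fun h => ?_)
    · rw [A1 s h, B1 s h]
      exact (h1 s (by rw [abs_of_nonneg hs]; exact (e' s hs h).2.2.2.2)).2.2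
    · have := (s0p.trans_le h).ne'
      refine (((hab _ (τp s h)).2.2.1.comp s (dτ s h)).div (hasDerivAt_id' s) this).congr_deriv ?_
      rw [A2 s h, B2 s h]
      simp only [Function.comp]
      field_simp
      ring
  have dB : ∀ s, 0 ≤ s → HasDerivAt (fun s => 1 + s * B s)
      ((1 + s * B s) * Qf p s (A s) (B s) / (2 * (p + 2 * s * A s))) s := fun s hs => by
    have e5 : (fun s => 1 + s * B s) = fun s => if s ≤ s0 then 1 + s * β s else b (τ s) := by
      ext s
      split_ifs with h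
      · rw [B1 s h]
      · have := (s0p.trans (not_le.1 h)).ne'
        rw [B2 s (not_le.1 h).le, mul_div_cancel₀ _ this]; ring
    rw [e5]
    refine glue' (by rw [τ0, hb0]) (fun h => ?_) (fun h => ?_)
    · rw [A1 s h, B1 s h]
      exact h2 s hs (e' s hs h).2.2.2.2
    · have := (s0p.trans_le h).ne'
      refine ((hab _ (τp s h)).2.2.2.comp s (dτ s h)).congr_deriv ?_
      have h3 : (p : ℝ) + 2 * a (τ s) ≠ 0 := by
        have := (hab _ (τp s h)).1
        positivity
      rw [A2 s h, B2 s h]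
      unfold Nf Qf
      field_simp
      ring
  have sm1 : ContDiffOn ℝ ∞ (fun s => (A s, 1 + s * B s)) (Ioi 0) := by
    refine smooth_ode (G := fun v : ℝ × ℝ × ℝ => (v.2.1 * ((v.2.2 - 1) / v.1 - v.2.1) / 2,
      v.2.2 * Qf p v.1 v.2.1 ((v.2.2 - 1) / v.1) / (2 * (p + 2 * v.1 * v.2.1)))) isOpen_Ioi
      (fun s hs => ?_) (fun s hs => ?_)
    · have h3 : s ≠ 0 := ne_of_gt hs
      have h4 : 2 * (p + 2 * s * A s) ≠ 0 := by
        have := Ap s (le_of_lt hs)
        have : 0 < s := hs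
        positivity
      unfold Qf
      fun_prop (disch := assumption)
    · have h3 : s ≠ 0 := ne_of_gt hs
      have e6 : (1 + s * B s - 1) / s = B s := by field_simp; ring
      simp only [e6]
      exact (dA s (le_of_lt hs)).prodMk (dB s (le_of_lt hs))
  have sm2 : ∀ s ∈ Ioi (-ε), ContDiffAt ℝ ∞ A s := fun s hs => by
    rcases lt_or_ge s s0 with h | h
    · refine ((h1 s (abs_lt.2 ⟨hs, h.trans k5⟩)).1.of_le le_top).congr_of_eventuallyEq ?_
      filter_upwards [Iio_mem_nhds h] with t ht using A1 t (le_of_lt ht)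
    · exact (sm1.contDiffAt (Ioi_mem_nhds (s0p.trans_le h))).fst
  have dP : ∀ s ∈ Ioi (-ε), HasDerivAt (fun t => ∫ x in (0 : ℝ)..t, A x) (A s) s := fun s hs =>
    ftc isOpen_Ioi (fun s hs => (sm2 s hs).continuousAt.continuousWithinAt)
      (ordConnected_Ioi.uIcc_subset (by simpa using hε) hs)
  have sm3 : ContDiffOn ℝ ∞ (fun t => ∫ x in (0 : ℝ)..t, A x) (Ioi (-ε)) :=
    smooth_ode (G := fun v : ℝ × ℝ => A v.1) isOpen_Ioi
      (fun s hs => ContDiffAt.comp (g := A) _ (sm2 s hs) contDiffAt_fst) dP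
  have hm : ∀ s, 0 ≤ s → s ∈ Ioi (-ε) := fun s hs => by
    rw [mem_Ioi]; linarith
  exact ⟨A, B, fun t => Real.exp (∫ x in (0 : ℝ)..t, A x),
    fun s hs => (sm3.contDiffAt (Ioi_mem_nhds (hm s hs))).exp, by simp, Ap, Bp,
    fun s _ => Real.exp_pos _, fun s hs => (dP s (hm s hs)).exp, dA, dB⟩

end Vale.Agent.P252
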