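import Vale.Agent.P252.Defs

namespace Vale.Agent.P252

open Matrix

variable {n : ℕ}

/-- Matrices spanned by the identity and the rank one matrices built from `y` and `e`. -/
def mat (y e : Fin n → ℝ) (c a b d : ℝ) : Matrix (Fin n) (Fin n) ℝ :=
  c • (1 : Matrix (Fin n) (Fin n) ℝ) + a • vecMulVec y y + b • (vecMulVec y e + vecMulVec e y) +
    d • vecMulVec e e

lemma mat_apply (y e : Fin n → ℝ) (c a b d : ℝ) (i j : Fin n) :
    mat y e c a b d i j = c * (if i = j then 1 else 0) + a * (y i * y j) +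
      b * (y i * e j + e i * y j) + d * (e i * e j) := by
  simp [mat, vecMulVec_apply, one_apply, mul_add]

lemma mat_transpose (y e : Fin n → ℝ) (c a b d : ℝ) : (mat y e c a b d)ᵀ = mat y e c a b d := by
  ext i j
  rw [transpose_apply, mat_apply, mat_apply]
  by_cases h : i = j
  · subst h; ring
  · rw [if_neg h, if_neg (Ne.symm h)]; ring

lemma mat_mul {y e : Fin n → ℝ} {s : ℝ} (hy : y ⬝ᵥ y = s) (hye : y ⬝ᵥ e = 0) (he : e ⬝ᵥ e = 1)
    (c a b d c' a' b' d' : ℝ) :
    mat y e c a b d * mat y e c' a' b' d' =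
      (c * c') • (1 : Matrix (Fin n) (Fin n) ℝ) +
      (c * a' + c' * a + a * s * a' + b * b') • vecMulVec y y +
      (c * b' + c' * b + a * s * b' + b * d') • vecMulVec y e +
      (c * b' + c' * b + b * s * a' + d * b') • vecMulVec e y +
      (c * d' + c' * d + b * s * b' + d * d') • vecMulVec e e := by
  have hey : e ⬝ᵥ y = 0 := by rw [dotProduct_comm, hye]
  simp only [mat, add_mul, mul_add, smul_mul_assoc, mul_smul_comm, one_mul, mul_one,
    vecMulVec_mul_vecMulVec, hy, hye, hey, he, smul_add, vecMulVec_smul, zero_smul, one_smul,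
    vecMulVec_zero, smul_zero]
  module

lemma mat_det {y e : Fin n → ℝ} {s : ℝ} (hy : y ⬝ᵥ y = s) (hye : y ⬝ᵥ e = 0) (he : e ⬝ᵥ e = 1)
    {c : ℝ} (hc : c ≠ 0) (a b d : ℝ) :
    (mat y e c a b d).det = c ^ n * (((c + a * s) * (c + d) - b * b * s) / c ^ 2) := by
  have hey : e ⬝ᵥ y = 0 := by rw [dotProduct_comm, hye]
  let X : Matrix (Fin n) (Fin 2) ℝ := Matrix.of fun i k => ![y i, e i] k
  let Z : Matrix (Fin 2) (Fin n) ℝ :=
    Matrix.of fun k j => ![(a * y j + b * e j) / c, (b * y j + d * e j) / c] k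
  have h1 : mat y e c a b d = c • (1 + X * Z) := by
    ext i j
    rw [mat_apply]
    simp [X, Z, mul_apply, Fin.sum_univ_two, one_apply]
    split_ifs <;> field_simp <;> ring
  have hyy : ∑ i, y i * y i = s := hy
  have hye' : ∑ i, y i * e i = 0 := hye
  have hey' : ∑ i, e i * y i = 0 := hey
  have hee : ∑ i, e i * e i = 1 := he
  have key : ∀ (u v : ℝ) (f : Fin n → ℝ), ∑ i, (u * y i + v * e i) / c * f i =
      (u * ∑ i, y i * f i + v * ∑ i, e i * f i) / c := by
    intro u v f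
    rw [Finset.mul_sum, Finset.mul_sum, ← Finset.sum_add_distrib, Finset.sum_div]
    exact Finset.sum_congr rfl fun i _ => by ring
  have h2 : Z * X = !![a * s / c, b / c; b * s / c, d / c] := by
    ext k l
    fin_cases k <;> fin_cases l <;>
      simp [X, Z, mul_apply, key, hyy, hye', hey', hee]
  rw [h1, det_smul, det_one_add_mul_comm, h2, det_fin_two]
  simp
  left
  field_simp

lemma mat_pair {y e : Fin n → ℝ} {s : ℝ} (hy : y ⬝ᵥ y = s) (hye : y ⬝ᵥ e = 0) (he : e ⬝ᵥ e = 1)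
    (c a b d c' a' b' d' : ℝ) :
    ∑ i, ∑ j, mat y e c a b d i j * mat y e c' a' b' d' i j =
      n * (c * c') + (c * a' + c' * a + a * s * a' + b * b') * s +
        (c * d' + c' * d + b * s * b' + d * d') := by
  have hey : e ⬝ᵥ y = 0 := by rw [dotProduct_comm, hye]
  have : ∑ i, ∑ j, mat y e c a b d i j * mat y e c' a' b' d' i j =
      trace (mat y e c a b d * (mat y e c' a' b' d')ᵀ) := by
    simp [trace, mul_apply]
  rw [this, mat_transpose, mat_mul hy hye he]
  simp [trace_add, trace_smul, trace_vecMulVec, hy, hye, hey, he]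
  ring

lemma mat_quad (y e v : Fin n → ℝ) (c a b d : ℝ) :
    v ⬝ᵥ (mat y e c a b d *ᵥ v) = c * (v ⬝ᵥ v) + a * (y ⬝ᵥ v) ^ 2 +
      2 * b * ((y ⬝ᵥ v) * (e ⬝ᵥ v)) + d * (e ⬝ᵥ v) ^ 2 := by
  simp only [mat, add_mulVec, smul_mulVec, one_mulVec, vecMulVec_mulVec, dotProduct_add,
    dotProduct_smul, smul_eq_mul, dotProduct_comm v y, dotProduct_comm v e, op_smul_eq_mul,
    smul_add]
  ring

end Vale.Agent.P252
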